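import Vale.Agent.P153D.Stmt

/-! The centred height function of a large domain, seen in the bulk. -/

open MeasureTheory Filter Topology

noncomputable section

namespace Vale.Agent.P153D

open Vale.Agent.P153

/-- Expectation under the uniform measure on `AdmD D ξ`. -/
def avD (D : Finset (ℤ × ℤ)) (ξ : Cfg) (F : Cfg → ℝ) : ℝ :=
  (∑ᶠ k ∈ AdmD D ξ, F k) / (AdmD D ξ).ncard

/-- For all sequences of domains without holes which exhaust the lattice and all boundary values
in `{0, -1}`, the centred tested heights at mesh `δ` converge in law to `σ` times the Gaussian free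
field when first the domain grows and then `δ` goes to zero. -/
def Bulk (σ : ℝ) : Prop :=
  ∀ (D : ℕ → Finset (ℤ × ℤ)) (ξ : ℕ → Cfg), (∀ n, Out (D n)) →
    (∀ n, ∀ x ∉ D n, ξ n x = 0 ∨ ξ n x = -1) → (∀ x, ∀ᶠ n in atTop, x ∈ D n) →
    ∀ (m : ℕ) (f : Fin m → ℂ → ℝ), (∀ j, Test (f j)) →
    ∀ (φ : BoundedContinuousFunction (EuclideanSpace ℝ (Fin m)) ℝ) (ε : ℝ), 0 < ε →
      ∀ᶠ δ in 𝓝[>] (0 : ℝ), ∀ᶠ n in atTop,
        |avD (D n) (ξ n) (fun k => φ (WithLp.toLp 2 fun j =>
            fld δ (f j) k - avD (D n) (ξ n) (fld δ (f j)))) -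
          ∫ x, φ x ∂(ProbabilityTheory.multivariateGaussian 0
            (Matrix.of fun j k => σ ^ 2 * cov (f j) (f k)))| < ε

end Vale.Agent.P153D
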