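import Vale.Agent.P153D.Stmt
import Vale.Agent.P153L.H2

/-! Geometry. `hx (c - a) = 1` gives `TAdj (ph a) (ph c)` (unfold, omega); `ph` is a bijection with inverse `ps`
(`h1_ps`, `h2_ph`); map the path with `Relation.ReflTransGen.lift ph`; use `2 * m` in `Out`.
`tend_ph`: `Filter.tendsto_atTop`, `Filter.eventually_all_finset`. -/

open Finset Filter Topology
open scoped Classical

noncomputable section

namespace Vale.Agent.P153D

open P152.GL P153L

theorem mem_ph {D : Finset Pt} {x : Pt} : x ∈ D.image ph ↔ ps x ∈ D := by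
  constructor
  · intro h
    obtain ⟨a, ha, rfl⟩ := mem_image.1 h
    rwa [h1_ps]
  · intro h
    exact mem_image.2 ⟨ps x, h, h2_ph x⟩

theorem g1_adj {a c : Pt} (h : P153.hx (c - a) = 1) : TAdj (ph a) (ph c) := by
  obtain ⟨a1, a2⟩ := a
  obtain ⟨c1, c2⟩ := c
  have h1 := h.le
  have h2 : (0 : ℤ) < P153.hx ((c1, c2) - (a1, a2)) := by rw [h]; exact one_pos
  simp only [P153.hx, Prod.mk_sub_mk, max_le_iff, abs_le] at h1
  simp only [P153.hx, Prod.mk_sub_mk, lt_max_iff, abs_pos] at h2
  simp only [TAdj, ph, Prod.mk.injEq]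
  omega

theorem ray_ph {D : Finset Pt} (h : Out D) : Ray (D.image ph) := by
  intro x hx m
  obtain ⟨y, hy, hp⟩ := h (ps x) (fun e => hx (mem_ph.2 e)) (2 * m)
  refine ⟨ph y, fun e => ?_, ?_⟩
  · obtain ⟨y1, y2⟩ := y
    simp only [mem_sqr, ph, abs_le] at e
    simp only [P153.hx, lt_max_iff, lt_abs] at hy
    push_cast at hy
    omega
  · rw [← h2_ph x]
    clear hy
    induction hp with
    | refl => exact .refl
    | tail _ hac ih => exact ih.tail ⟨g1_adj hac.1, fun e => hac.2 (by rwa [mem_ph, h1_ps] at e)⟩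

theorem tend_ph {D : ℕ → Finset Pt} (h : ∀ x, ∀ᶠ n in atTop, x ∈ D n) :
    Tendsto (fun n => (D n).image ph) atTop atTop := by
  refine tendsto_atTop.2 fun F => ?_
  filter_upwards [(eventually_all_finset F).2 fun x _ => h (ps x)] with n hn x hx
  exact mem_ph.2 (hn x hx)

end Vale.Agent.P153D
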