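import Vale.Agent.P153D.G1

/-! Copy the proof of `sp_bij` (P153L/H2). Off `N = D.image ph` the second spin is true and the residue `a x` is `0` or `3`,
congruent to `ξ (ps x)` mod 4. Surjectivity: `poinc` for the form `(a y - a x + 1) % 4 - 1 - (ξ (ps y) - ξ (ps x))`, which vanishes
off `N`; the height is `fun x => g (ph x) + ξ x`. -/

open Finset Filter Topology
open scoped Classical

noncomputable section

namespace Vale.Agent.P153D

open P152.GL P153L

/-- Compatible pairs, the first spin being `ζ` and the second true outside `N`. -/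
def cfz (N : Finset Pt) (ζ : Col) : Finset (Col × Col) :=
  (ext N ζ ×ˢ ext N tt).filter fun p => Ok Set.univ p.1 p.2

theorem mem_cfz {N : Finset Pt} {ζ : Col} {p : Col × Col} :
    p ∈ cfz N ζ ↔ (∀ x ∉ N, p.1 x = ζ x) ∧ (∀ x ∉ N, p.2 x = true) ∧ Ok Set.univ p.1 p.2 := by
  simp only [cfz, mem_filter, mem_product, mem_ext, tt, and_assoc]

theorem sp_bijz {D : Finset Pt} (hD : Ray (D.image ph)) {ξ : Pt → ℤ}
    (hξ : ∀ x ∉ D, ξ x = 0 ∨ ξ x = -1) :
    Set.BijOn sp (AdmD D ξ) (cfz (D.image ph) (sp ξ).1 : Set (Col × Col)) := by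
  obtain ⟨z, hz⟩ := Infinite.exists_notMem_finset (D.image ph)
  have nm : ∀ {x : Pt}, x ∉ D.image ph → ps x ∉ D := fun hx h => hx (mem_ph.2 h)
  refine ⟨fun k hk => mem_coe.2 (mem_cfz.2 ⟨fun x hx => ?_, fun x hx => ?_,
    fun x _ y _ e => ?_⟩), fun k hk k' hk' e => ?_, fun p hp => ?_⟩
  · simp only [sp, hk.2 _ (nm hx)]
  · have b1 := hξ _ (nm hx)
    refine decide_eq_true ?_
    rw [hk.2 _ (nm hx)]
    omega
  · have h1 := abs_le.1 (lip_iff.1 hk.1 x y e)
    simp only [sp, decide_eq_decide]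
    omega
  · have m : ∀ y, k (ps y) % 4 = k' (ps y) % 4 := fun y => by
      have h1 := congrFun (congrArg Prod.fst e) y
      have h2 := congrFun (congrArg Prod.snd e) y
      simp only [sp, decide_eq_decide] at h1 h2
      omega
    funext x
    have h3 := h2_const (u := fun y => k (ps y) - k' (ps y)) (fun a b e' => by
      have b1 := abs_le.1 (lip_iff.1 hk.1 _ _ e')
      have b2 := abs_le.1 (lip_iff.1 hk'.1 _ _ e')
      have b3 := m a
      have b4 := m b
      omega) (ph x) z
    rw [h1_ps, hk.2 _ (nm hz), hk'.2 _ (nm hz), sub_self] at h3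
    exact sub_eq_zero.1 h3
  · obtain ⟨p1, p2, p3⟩ := mem_cfz.1 (mem_coe.1 hp)
    obtain ⟨a, ha⟩ : ∃ a : Pt → ℤ, ∀ x, a x = h2a (p.1 x) (p.2 x) := ⟨_, fun _ => rfl⟩
    have ok : ∀ x y, TAdj x y → (a y - a x) % 4 ≠ 2 := fun x y e => by
      rw [ha, ha]
      exact h2_ok (p3 x trivial y trivial e)
    have a0 : ∀ x ∉ D.image ph,
        (a x = 0 ∧ ξ (ps x) = 0) ∨ (a x = 3 ∧ ξ (ps x) = -1) := fun x hx => by
      rw [ha, p1 x hx, p2 x hx]
      rcases hξ _ (nm hx) with b | b
      · refine Or.inl ⟨?_, b⟩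
        simp only [sp, b]
        rfl
      · refine Or.inr ⟨?_, b⟩
        simp only [sp, b]
        rfl
    obtain ⟨g, g1, g2⟩ := poinc
      (fun x y => (a y - a x + 1) % 4 - 1 - (ξ (ps y) - ξ (ps x))) hD
      (fun x y e => by
        have b1 := ok x y e
        omega)
      (fun x y w e1 e2 e3 => by
        have b1 := ok x y e1
        have b2 := ok y w e2
        have b3 := ok x w e3
        omega)
      fun x hx y hy _ => by
        have b1 := a0 x hx
        have b2 := a0 y hy
        omega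
    have g3 : ∀ x, (g x + ξ (ps x) - a x) % 4 = 0 := fun x => by
      have h3 := h2_const (u := fun y => (g y + ξ (ps y) - a y) % 4) (fun x y e => by
        have b1 := g1 x y e
        omega) x z
      have b2 := a0 z hz
      rw [h3, g2 z hz]
      omega
    refine ⟨fun x => g (ph x) + ξ x, ⟨lip_iff.2 fun x y e => ?_, fun x hx => ?_⟩,
      Prod.ext (funext fun x => ?_) (funext fun x => ?_)⟩
    · have b1 := g1 x y e
      have b2 := ok x y e
      rw [h2_ph, h2_ph, abs_le]
      omega
    · have b1 := g2 (ph x) fun h => hx (by simpa only [h1_ps] using mem_ph.1 h)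
      show g (ph x) + ξ x = ξ x
      rw [b1, zero_add]
    · have b1 := g3 x
      rw [ha] at b1
      simpa only [sp, h2_ph] using (h2_dec _ _ _ b1).1
    · have b1 := g3 x
      rw [ha] at b1
      simpa only [sp, h2_ph] using (h2_dec _ _ _ b1).2

end Vale.Agent.P153D
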