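import Vale.Agent.P153D.G2

/-! Counting. `cfz_q`: copy the proof of `J_q` (P153L/BasJ) with `ζ` for `tt`. `domP_eq`: copy `hexP_eq` (P153L/H3). -/

open Finset Filter Topology
open scoped Classical

noncomputable section

namespace Vale.Agent.P153D

open P152.GL P153L

theorem cfz_q (N : Finset Pt) (ζ : Col) (G : Set (Col × Col)) :
    (((cfz N ζ).filter (· ∈ G)).card : ℝ) / (cfz N ζ).card =
      ex N N ζ fun r => q N Set.univ r G := by
  have h : ∀ G : Set (Col × Col), (((cfz N ζ).filter (· ∈ G)).card : ℝ) =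
      ∑ r ∈ P153L.ext N ζ, (((P153L.cmp N Set.univ r).filter fun b => (r, b) ∈ G).card : ℝ) := fun G => by
    rw [← Nat.cast_sum]
    congr 1
    simp only [cfz, P153L.cmp, filter_filter, card_filter]
    rw [sum_product]
  have h1 := h Set.univ
  simp only [Set.mem_univ, filter_true] at h1
  rw [ex, h, h1]
  congr 1
  refine sum_congr rfl fun r _ => ?_
  rw [q, ← w, mul_div_cancel₀ _ w_pos.ne']

theorem domP_eq {D : Finset Pt} (hD : Ray (D.image ph)) {ξ : Pt → ℤ}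
    (hξ : ∀ x ∉ D, ξ x = 0 ∨ ξ x = -1) {M : ℕ} {S : Finset Pt} (hS : ∀ x ∈ S, ph x ∈ sqr M)
    (η : Pt → ℤ) : domP D ξ S η =
      ex (D.image ph) (D.image ph) (sp ξ).1 fun r => q (D.image ph) Set.univ r (Ev M S η) := by
  have h := sp_bijz hD hξ
  have h2 : Set.BijOn sp {k ∈ AdmD D ξ | ∀ x ∈ S, k x - k 0 = η x}
      ((cfz (D.image ph) (sp ξ).1).filter (· ∈ Ev M S η) : Finset (Col × Col)) := by
    refine ⟨fun k hk => ?_, h.injOn.mono fun k hk => hk.1, fun p hp => ?_⟩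
    · exact mem_coe.2 (mem_filter.2 ⟨mem_coe.1 (h.mapsTo hk.1), (ev_iff hS η hk.1.1).2 hk.2⟩)
    · obtain ⟨h3, h4⟩ := mem_filter.1 (mem_coe.1 hp)
      obtain ⟨k, hk, rfl⟩ := h.surjOn (mem_coe.2 h3)
      exact ⟨k, ⟨hk, (ev_iff hS η hk.1).1 h4⟩, rfl⟩
  rw [← cfz_q, domP, h.ncard_eq, h2.ncard_eq, Set.ncard_coe_finset, Set.ncard_coe_finset]

end Vale.Agent.P153D
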