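import Vale.Agent.P153L.Z2

/-! Any boundary condition for the first spin. `holley` with `w_lat` gives `ex N N (fl tt) f ≤ ex N N ζ f ≤ ex N N tt f` for monotone `f`.
For an upper set `E` depending on `F`, `z2_mono` gives `nu N N tt E - nu N N ζ E ≤ ∑ x ∈ F, (nu N N tt {r x} - nu N N ζ {r x})`, and
`nu N N ζ {r x} ≥ nu N N (fl tt) {r x} = 1 - nu N N tt {r x}` (`ex_fl`). By `fam_zero`, `nu N N tt {r x} → 1 / 2`. Then `loc_ind` as in `fam_zero`. -/

open Finset Filter Topology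
open scoped Classical

noncomputable section

namespace Vale.Agent.P153D

open P152.GL P153L

theorem g4_hol {N : Finset Pt} (hN : Ray N) {ξ ξ' : Col} (h : ξ ≤ ξ') {f : Col → ℝ}
    (hf : Monotone f) : ex N N ξ f ≤ ex N N ξ' f :=
  holley h (fun r _ r' _ => w_lat hN r r') hf

theorem g4_fl (N : Finset Pt) (x : Pt) :
    nu N N (fl tt) {r | r x = true} = 1 - nu N N tt {r | r x = true} := by
  rw [nu, nu, ex_fl, ← ex_const (D := N) (N := N) (ξ := tt) 1, ← ex_sub]
  refine ex_congr fun r _ => ?_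
  cases h : r x <;> simp [Set.indicator, fl, h]

theorem g4_bd {N F : Finset Pt} (hN : Ray N) (ζ : Col) {E : Set Col} (hE : Dep F E) :
    nu N N tt E - ∑ x ∈ F, (2 * nu N N tt {r | r x = true} - 1) ≤ nu N N ζ E := by
  have h1 := g4_hol hN (L1_le ζ) (z2_mono hE)
  rw [ex_sub, ex_sub, ex_sum, ex_sum] at h1
  have h2 : ∑ x ∈ F, (1 - nu N N tt {r | r x = true}) ≤ ∑ x ∈ F, nu N N ζ {r | r x = true} :=
    sum_le_sum fun x _ => (g4_fl N x).ge.trans
      (g4_hol hN (fun y => Bool.false_le _) (z2_ind (z2_up x)))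
  rw [sum_sub_distrib] at h2
  rw [sum_sub_distrib, ← mul_sum]
  simp only [nu] at h2 ⊢
  linarith

theorem nu_any (h0 : ∀ x, lP {r | r x = true} = 1 / 2) {N : ℕ → Finset Pt} (hR : ∀ i, Ray (N i))
    (hN : Tendsto N atTop atTop) (ζ : ℕ → Col) {E : Set Col} (hE : Loc E) :
    Tendsto (fun i => nu (N i) (N i) (ζ i) E) atTop (𝓝 (lP E)) := by
  have hz := (fam_zero h0 hR hN).1
  refine loc_ind (Q := fun E => Tendsto (fun i => nu (N i) (N i) (ζ i) E) atTop (𝓝 (lP E)))
    ?_ ?_ ?_ hE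
  · rintro E ⟨F, hF⟩ hu
    have h1 := hz E ⟨F, hF⟩
    have h2 : Tendsto (fun i => ∑ x ∈ F, (2 * nu (N i) (N i) tt {r | r x = true} - 1)) atTop
        (𝓝 (∑ _x ∈ F, (0 : ℝ))) := tendsto_finsetSum _ fun x _ => by
      have h3 := ((hz {r | r x = true} ⟨{x}, fun X Y e hX =>
        (e x (mem_singleton_self x)).symm.trans hX⟩).const_mul 2).sub_const 1
      rwa [h0, show (2 : ℝ) * (1 / 2) - 1 = 0 by norm_num] at h3
    have h4 := h1.sub h2
    rw [sum_const_zero, sub_zero] at h4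
    exact tendsto_of_tendsto_of_tendsto_of_le_of_le h4 h1 (fun i => g4_bd (hR i) (ζ i) hF)
      fun i => g4_hol (hR i) (L1_le _) (z2_ind hu)
  · intro E E' h1 h2 hd h3 h4
    simp only [nu_add hd, fld_lP.add E E' h1 h2 hd]
    exact h3.add h4
  · intro E E' h1 h2 hd h3 h4
    have := h3.sub h4
    simpa only [nu_add hd, fld_lP.add E E' h1 h2 hd, add_sub_cancel_left] using this

end Vale.Agent.P153D
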