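import Vale.Agent.P153L.X1

/-! The joint limit. `lex_any`, `near_any`: copy `tend_lex`, `J_near` (P153L/X1) with `ζ` for `tt`.
`lJ_any`: for `ε` take `S ⊆ sqr n`, `m` from `NoT`, `R = sqr m`, `TArm S R ⊆ TArm (sqr n) R` (`tarm_mono`, `dep_tarm`);
`|lJ G - lex R (q R R · G)| ≤ ε` from `tend_lJ`, `tend_lex`, `J_near` along `fam_free` (`q_dep`), and the same for the sequence. -/

open Finset Filter Topology
open scoped Classical

noncomputable section

namespace Vale.Agent.P153D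

open P152.GL P153L

theorem lex_any {N : ℕ → Finset Pt} {ζ : ℕ → Col}
    (h : ∀ E, Loc E → Tendsto (fun i => nu (N i) (N i) (ζ i) E) atTop (𝓝 (lP E)))
    {F : Finset Pt} {f : Col → ℝ} (hf : DepF F f) :
    Tendsto (fun i => ex (N i) (N i) (ζ i) f) atTop (𝓝 (lex F f)) := by
  have e : ∀ i, ex (N i) (N i) (ζ i) f =
      ∑ σ ∈ ext F tt, f σ * nu (N i) (N i) (ζ i) {r : Col | ∀ x ∈ F, r x = σ x} := by
    intro i
    rw [ex_congr fun r _ => x1_pt hf r, ex_sum]
    exact sum_congr rfl fun σ _ => ex_smul _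
  simp only [e]
  refine tendsto_finsetSum _ fun σ _ => (h _ ⟨F, ?_⟩).const_mul _
  exact fun X Y e hX x hx => (e x hx).symm.trans (hX x hx)

theorem near_any {N S R : Finset Pt} (ζ : Col) (hS : S ⊆ R) (hR : R ⊆ N) {G : Set (Col × Col)}
    (hG : Dep2 S G) :
    |(ex N N ζ fun r => q N Set.univ r G) - ex N N ζ fun r => q R R r G| ≤ nu N N ζ (TArm S R) := by
  have key : ∀ r : Col, |q N Set.univ r G - q R R r G| ≤ (TArm S R).indicator 1 r := by
    intro r
    by_cases hr : r ∈ TArm S R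
    · rw [Set.indicator_of_mem hr, Pi.one_apply, abs_le]
      have h1 := q_nonneg (A := N) (T := Set.univ) (r := r) G
      have h2 := q_le_one (A := N) (T := Set.univ) (r := r) G
      have h3 := q_nonneg (A := R) (T := R) (r := r) G
      have h4 := q_le_one (A := R) (T := R) (r := r) G
      constructor <;> linarith
    · rw [Set.indicator_of_notMem hr, q_loc hS hR hr hG, sub_self, abs_zero]
  rw [abs_sub_le_iff, ← ex_sub, ← ex_sub]
  exact ⟨ex_mono fun r _ => (abs_sub_le_iff.1 (key r)).1,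
    ex_mono fun r _ => (abs_sub_le_iff.1 (key r)).2⟩

theorem lJ_any (hT : NoT) {N : ℕ → Finset Pt} (hN : Tendsto N atTop atTop) {ζ : ℕ → Col}
    (h : ∀ E, Loc E → Tendsto (fun i => nu (N i) (N i) (ζ i) E) atTop (𝓝 (lP E)))
    {S : Finset Pt} {G : Set (Col × Col)} (hG : Dep2 S G) :
    Tendsto (fun i => ex (N i) (N i) (ζ i) fun r => q (N i) Set.univ r G) atTop (𝓝 (lJ G)) := by
  refine Metric.tendsto_nhds.2 fun ε hε => ?_
  obtain ⟨n, hn⟩ := ex_sqr S
  obtain ⟨m, hm, h0⟩ := hT n (ε / 4) (by positivity)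
  have hs : sqr n ⊆ sqr m := fun _ e => a5l_sub hm e
  have hG' : Dep2 (sqr n) G := fun p p' e => hG p p' fun x hx => e x (hn hx)
  have k : |lJ G - lex (sqr m) fun r => q (sqr m) (sqr m) r G| ≤ lP (TArm (sqr n) (sqr m)) :=
    le_of_tendsto_of_tendsto ((tend_lJ hT fam_free hG).sub (tend_lex fam_free (q_dep hs hG'))).abs
      (fam_free.1 _ ⟨_, dep_tarm hs⟩)
      ((fam_free.2.eventually_ge_atTop (sqr m)).mono fun D c => J_near (D := D) hs c hG')
  have h1 := (h _ ⟨_, dep_tarm hs⟩).eventually (gt_mem_nhds (a := ε / 2) (by linarith))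
  have h2 := Metric.tendsto_nhds.1 (lex_any h (q_dep hs hG')) (ε / 4) (by positivity)
  filter_upwards [h1, h2, hN.eventually_ge_atTop (sqr m)] with i a b c
  have h3 := abs_le.1 (near_any (ζ i) hs c hG')
  have h4 := abs_le.1 k
  rw [Real.dist_eq, abs_lt] at b ⊢
  constructor <;> linarith [h3.1, h3.2, h4.1, h4.2, b.1, b.2]

end Vale.Agent.P153D
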