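import Vale.Agent.P153.Stmt

/-! Uniform Lipschitz heights in a general domain with boundary values `h = ± 1`.
Here `k = (h - 1) / 2`, so that the boundary values of `k` are `0` and `-1`. -/

open MeasureTheory Filter Topology

noncomputable section

namespace Vale.Agent.P153D

open Vale.Agent.P153

/-- `D` has no holes: every vertex outside `D` goes to infinity along edges, outside `D`. -/
def Out (D : Finset (ℤ × ℤ)) : Prop :=
  ∀ x ∉ D, ∀ m : ℕ, ∃ y, (m : ℤ) < hx y ∧
    Relation.ReflTransGen (fun a c => hx (c - a) = 1 ∧ c ∉ D) x y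

/-- Lipschitz functions equal to `ξ` outside `D`. -/
def AdmD (D : Finset (ℤ × ℤ)) (ξ : Cfg) : Set Cfg := {k | Lip k ∧ ∀ x ∉ D, k x = ξ x}

/-- Probability, under the uniform measure on `AdmD D ξ`, that `k - k 0` equals `η` on `S`. -/
def domP (D : Finset (ℤ × ℤ)) (ξ : Cfg) (S : Finset (ℤ × ℤ)) (η : Cfg) : ℝ :=
  ({k ∈ AdmD D ξ | ∀ x ∈ S, k x - k 0 = η x}.ncard : ℝ) / (AdmD D ξ).ncard

/-- `P` is the local limit of the law of `k - k 0` along all sequences of domains without holes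
which exhaust the lattice and all boundary values in `{0, -1}`. -/
def IsLimD (P : Measure Cfg) : Prop :=
  ∀ (D : ℕ → Finset (ℤ × ℤ)) (ξ : ℕ → Cfg), (∀ n, Out (D n)) →
    (∀ n, ∀ x ∉ D n, ξ n x = 0 ∨ ξ n x = -1) → (∀ x, ∀ᶠ n in atTop, x ∈ D n) →
    ∀ (S : Finset (ℤ × ℤ)) (η : Cfg),
      Tendsto (fun n => domP (D n) (ξ n) S η) atTop (𝓝 (P.real {k | ∀ x ∈ S, k x = η x}))

end Vale.Agent.P153D
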